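import Mathlib
import Vale.Agent.P245.Defs

/-!
# Gibbs variational bound with a linearly subgaussian law (row GIBBS of helper607)

For a linearly `a`-subgaussian probability measure `μ` on `ℝⁿ`, an orthonormal family `v` and a
finite set `S` of indices, `∫ exp (∑_{i ∈ S} ⟨v i, x⟩² / (2 a²)) dμ ≤ 2 (√2)^|S|`, and the
corresponding bound of second moments under a tilt `μ.tilted g`.
-/

open MeasureTheory Real
open scoped ENNReal

namespace Vale.Agent.P245.H767

/-- `∫ (2π)^{-1/2} e^{-z²/2} e^{z t} dz = e^{t²/2}` -/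
theorem gauss_lin (t : ℝ) :
    ∫⁻ z : ℝ, ENNReal.ofReal ((√(2 * π))⁻¹ * exp (-z ^ 2 / 2) * exp (z * t))
      = ENNReal.ofReal (exp (t ^ 2 / 2)) := by
  have h0 : ∀ z : ℝ, (√(2 * π))⁻¹ * exp (-z ^ 2 / 2) * exp (z * t)
      = ((√(2 * π))⁻¹ * exp (t ^ 2 / 2)) * exp (-(1 / 2) * (z - t) ^ 2) := by
    intro z
    rw [mul_assoc, mul_assoc, ← exp_add, ← exp_add]
    congr 2
    ring
  have hi : Integrable (fun z : ℝ => exp (-(1 / 2) * z ^ 2)) :=
    integrable_exp_neg_mul_sq (by norm_num)
  have hi2 : Integrable (fun z : ℝ => exp (-(1 / 2) * (z - t) ^ 2)) := hi.comp_sub_right t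
  rw [← ofReal_integral_eq_lintegral_ofReal]
  · congr 1
    simp_rw [h0]
    rw [integral_const_mul, integral_sub_right_eq_self (fun z : ℝ => exp (-(1 / 2) * z ^ 2)) t,
      integral_gaussian]
    have h2 : √(π / (1 / 2)) = √(2 * π) := by
      congr 1
      ring
    rw [h2]
    have h3 : √(2 * π) ≠ 0 := by positivity
    field_simp
  · simp_rw [h0]
    exact hi2.const_mul _
  · exact Filter.Eventually.of_forall fun z => by positivity

/-- `∫ (2π)^{-1/2} e^{-z²/2} e^{z²/4} dz = √2` -/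
theorem gauss_quart :
    ∫⁻ z : ℝ, ENNReal.ofReal ((√(2 * π))⁻¹ * exp (-z ^ 2 / 2) * exp (z ^ 2 / 4))
      = ENNReal.ofReal (√2) := by
  have h0 : ∀ z : ℝ, (√(2 * π))⁻¹ * exp (-z ^ 2 / 2) * exp (z ^ 2 / 4)
      = (√(2 * π))⁻¹ * exp (-(1 / 4) * z ^ 2) := by
    intro z
    rw [mul_assoc, ← exp_add]
    congr 2
    ring
  have hi : Integrable (fun z : ℝ => exp (-(1 / 4) * z ^ 2)) :=
    integrable_exp_neg_mul_sq (by norm_num)
  rw [← ofReal_integral_eq_lintegral_ofReal]
  · congr 1
    simp_rw [h0]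
    rw [integral_const_mul, integral_gaussian]
    have h2 : √(π / (1 / 4)) = √2 * √(2 * π) := by
      rw [← Real.sqrt_mul (by norm_num)]
      congr 1
      ring
    rw [h2]
    have h3 : √(2 * π) ≠ 0 := by positivity
    field_simp
  · simp_rw [h0]
    exact hi.const_mul _
  · exact Filter.Eventually.of_forall fun z => by positivity

variable {n : ℕ}

/-- exponential moments: `∫ e^{⟨h,x⟩/a} dμ ≤ 2 e^{|h|²/4}` -/
theorem exp_lin {μ : Measure (EuclideanSpace ℝ (Fin n))} [IsProbabilityMeasure μ]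
    {a : ℝ} (hsub : LinearlySubgaussian μ a) (h : EuclideanSpace ℝ (Fin n)) :
    ∫⁻ x, ENNReal.ofReal (exp (inner ℝ h x / a)) ∂μ
      ≤ ENNReal.ofReal (2 * exp (‖h‖ ^ 2 / 4)) := by
  by_cases hh : h = 0
  · subst hh
    simp only [inner_zero_left, zero_div, exp_zero, ENNReal.ofReal_one, lintegral_const,
      measure_univ, mul_one, norm_zero]
    norm_num
  · have hn : 0 < ‖h‖ := norm_pos_iff.2 hh
    set θ : EuclideanSpace ℝ (Fin n) := (‖h‖)⁻¹ • h with hθ
    have hθ1 : ‖θ‖ = 1 := by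
      rw [hθ, norm_smul, norm_inv, norm_norm, inv_mul_cancel₀ hn.ne']
    have hi : ∀ x, inner ℝ h x = ‖h‖ * inner ℝ x θ := by
      intro x
      rw [hθ, real_inner_comm, inner_smul_right, ← mul_assoc, mul_inv_cancel₀ hn.ne', one_mul]
    calc ∫⁻ x, ENNReal.ofReal (exp (inner ℝ h x / a)) ∂μ
        ≤ ∫⁻ x, ENNReal.ofReal (exp (‖h‖ ^ 2 / 4))
            * ENNReal.ofReal (exp (inner ℝ x θ ^ 2 / a ^ 2)) ∂μ := by
          apply lintegral_mono
          intro x
          simp only
          rw [← ENNReal.ofReal_mul (by positivity), ← exp_add]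
          apply ENNReal.ofReal_le_ofReal
          apply exp_le_exp.2
          rw [hi x]
          have h1 : inner ℝ x θ ^ 2 / a ^ 2 = (inner ℝ x θ / a) ^ 2 := by rw [div_pow]
          have h2 : ‖h‖ * inner ℝ x θ / a = ‖h‖ * (inner ℝ x θ / a) := by ring
          rw [h1, h2]
          nlinarith [sq_nonneg (‖h‖ / 2 - inner ℝ x θ / a)]
      _ = ENNReal.ofReal (exp (‖h‖ ^ 2 / 4))
            * ∫⁻ x, ENNReal.ofReal (exp (inner ℝ x θ ^ 2 / a ^ 2)) ∂μ := by
          rw [lintegral_const_mul]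
          fun_prop
      _ ≤ ENNReal.ofReal (exp (‖h‖ ^ 2 / 4)) * 2 := by
          gcongr
          exact hsub θ hθ1
      _ = ENNReal.ofReal (2 * exp (‖h‖ ^ 2 / 4)) := by
          rw [ENNReal.ofReal_mul (by norm_num), mul_comm]
          norm_num

/-- the induction behind `gibbs_exp` -/
theorem gibbs_aux {μ : Measure (EuclideanSpace ℝ (Fin n))} [IsProbabilityMeasure μ]
    {a : ℝ} (ha : 0 < a) (hsub : LinearlySubgaussian μ a)
    {v : Fin n → EuclideanSpace ℝ (Fin n)} (hv : Orthonormal ℝ v) (S : Finset (Fin n)) :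
    ∀ h : EuclideanSpace ℝ (Fin n), (∀ i ∈ S, inner ℝ (v i) h = 0) →
    ∫⁻ x, ENNReal.ofReal (exp (inner ℝ h x / a)
        * exp ((∑ i ∈ S, inner ℝ (v i) x ^ 2) / (2 * a ^ 2))) ∂μ
      ≤ ENNReal.ofReal (2 * √2 ^ S.card * exp (‖h‖ ^ 2 / 4)) := by
  classical
  induction S using Finset.induction_on with
  | empty =>
    intro h _
    simpa using exp_lin hsub h
  | insert j S hj ih =>
    intro h hh
    have hhS : ∀ i ∈ S, inner ℝ (v i) h = 0 := fun i hi => hh i (Finset.mem_insert_of_mem hi)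
    have hhj : inner ℝ (v j) h = 0 := hh j (Finset.mem_insert_self _ _)
    have hvj : ‖v j‖ = 1 := hv.1 j
    -- pointwise rewriting by the Gaussian integral
    have key : ∀ x, ENNReal.ofReal (exp (inner ℝ h x / a)
        * exp ((∑ i ∈ insert j S, inner ℝ (v i) x ^ 2) / (2 * a ^ 2)))
        = ∫⁻ z : ℝ, ENNReal.ofReal ((√(2 * π))⁻¹ * exp (-z ^ 2 / 2)) *
            ENNReal.ofReal (exp (inner ℝ (h + z • v j) x / a)
              * exp ((∑ i ∈ S, inner ℝ (v i) x ^ 2) / (2 * a ^ 2))) := by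
      intro x
      have e1 : ∀ z : ℝ, ENNReal.ofReal ((√(2 * π))⁻¹ * exp (-z ^ 2 / 2)) *
            ENNReal.ofReal (exp (inner ℝ (h + z • v j) x / a)
              * exp ((∑ i ∈ S, inner ℝ (v i) x ^ 2) / (2 * a ^ 2)))
          = ENNReal.ofReal (exp (inner ℝ h x / a)
              * exp ((∑ i ∈ S, inner ℝ (v i) x ^ 2) / (2 * a ^ 2))) *
            ENNReal.ofReal ((√(2 * π))⁻¹ * exp (-z ^ 2 / 2)
              * exp (z * (inner ℝ (v j) x / a))) := by
        intro z
        rw [← ENNReal.ofReal_mul (by positivity), ← ENNReal.ofReal_mul (by positivity)]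
        congr 1
        rw [inner_add_left, real_inner_smul_left, add_div, exp_add,
          show z * inner ℝ (v j) x / a = z * (inner ℝ (v j) x / a) by ring]
        ring
      simp_rw [e1]
      rw [lintegral_const_mul _ (by fun_prop), gauss_lin, ← ENNReal.ofReal_mul (by positivity)]
      congr 1
      rw [Finset.sum_insert hj, add_div, exp_add,
        show (inner ℝ (v j) x / a) ^ 2 / 2 = inner ℝ (v j) x ^ 2 / (2 * a ^ 2) by field_simp]
      ring
    calc ∫⁻ x, ENNReal.ofReal (exp (inner ℝ h x / a)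
          * exp ((∑ i ∈ insert j S, inner ℝ (v i) x ^ 2) / (2 * a ^ 2))) ∂μ
        = ∫⁻ x, (∫⁻ z : ℝ, ENNReal.ofReal ((√(2 * π))⁻¹ * exp (-z ^ 2 / 2)) *
            ENNReal.ofReal (exp (inner ℝ (h + z • v j) x / a)
              * exp ((∑ i ∈ S, inner ℝ (v i) x ^ 2) / (2 * a ^ 2)))) ∂μ :=
          lintegral_congr key
      _ = ∫⁻ z : ℝ, (∫⁻ x, ENNReal.ofReal ((√(2 * π))⁻¹ * exp (-z ^ 2 / 2)) *
            ENNReal.ofReal (exp (inner ℝ (h + z • v j) x / a)
              * exp ((∑ i ∈ S, inner ℝ (v i) x ^ 2) / (2 * a ^ 2))) ∂μ) := by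
          apply lintegral_lintegral_swap
          apply Measurable.aemeasurable
          fun_prop
      _ ≤ ∫⁻ z : ℝ, ENNReal.ofReal ((√(2 * π))⁻¹ * exp (-z ^ 2 / 2)) *
            ENNReal.ofReal (2 * √2 ^ S.card * exp (‖h + z • v j‖ ^ 2 / 4)) := by
          apply lintegral_mono
          intro z
          simp only
          rw [lintegral_const_mul _ (by fun_prop)]
          gcongr
          apply ih
          intro i hi
          rw [inner_add_right, hhS i hi, real_inner_smul_right]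
          have hij : i ≠ j := fun e => hj (e ▸ hi)
          rw [hv.2 hij]
          ring
      _ = ∫⁻ z : ℝ, ENNReal.ofReal (2 * √2 ^ S.card * exp (‖h‖ ^ 2 / 4)) *
            ENNReal.ofReal ((√(2 * π))⁻¹ * exp (-z ^ 2 / 2) * exp (z ^ 2 / 4)) := by
          apply lintegral_congr
          intro z
          rw [← ENNReal.ofReal_mul (by positivity), ← ENNReal.ofReal_mul (by positivity)]
          congr 1
          have h1 : ‖h + z • v j‖ ^ 2 = ‖h‖ ^ 2 + z ^ 2 := by
            rw [norm_add_sq_real, real_inner_smul_right, real_inner_comm, hhj, norm_smul, hvj,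
              norm_eq_abs]
            simp
          rw [h1, add_div, exp_add]
          ring
      _ = ENNReal.ofReal (2 * √2 ^ S.card * exp (‖h‖ ^ 2 / 4)) * ENNReal.ofReal (√2) := by
          rw [lintegral_const_mul _ (by fun_prop), gauss_quart]
      _ = ENNReal.ofReal (2 * √2 ^ (insert j S).card * exp (‖h‖ ^ 2 / 4)) := by
          rw [← ENNReal.ofReal_mul (by positivity), Finset.card_insert_of_notMem hj, pow_succ]
          congr 1
          ring

/-- **Row GIBBS (exponential form).** -/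
theorem gibbs {μ : Measure (EuclideanSpace ℝ (Fin n))} [IsProbabilityMeasure μ]
    {a : ℝ} (ha : 0 < a) (hsub : LinearlySubgaussian μ a)
    {v : Fin n → EuclideanSpace ℝ (Fin n)} (hv : Orthonormal ℝ v) (S : Finset (Fin n)) :
    ∫⁻ x, ENNReal.ofReal (exp ((∑ i ∈ S, inner ℝ (v i) x ^ 2) / (2 * a ^ 2))) ∂μ
      ≤ ENNReal.ofReal (2 * √2 ^ S.card) := by
  have h := gibbs_aux ha hsub hv S 0 (fun i _ => by simp)
  simpa using h

/-- **Row GIBBS (second moments under a tilt).** -/
theorem gibbs_tilted {μ : Measure (EuclideanSpace ℝ (Fin n))} [IsProbabilityMeasure μ]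
    {a : ℝ} (ha : 0 < a) (hsub : LinearlySubgaussian μ a)
    {v : Fin n → EuclideanSpace ℝ (Fin n)} (hv : Orthonormal ℝ v) (S : Finset (Fin n))
    {g : EuclideanSpace ℝ (Fin n) → ℝ} (hg : Integrable (fun x => exp (g x)) μ)
    (hg2 : Integrable g (μ.tilted g)) :
    Integrable (fun x => ∑ i ∈ S, inner ℝ (v i) x ^ 2) (μ.tilted g) ∧
    ∫ x, ∑ i ∈ S, inner ℝ (v i) x ^ 2 ∂(μ.tilted g)
      ≤ 2 * a ^ 2 * ((∫ x, g x ∂(μ.tilted g)) - log (∫ x, exp (g x) ∂μ)
        + log (2 * √2 ^ S.card)) := by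
  set Z : ℝ := ∫ x, exp (g x) ∂μ with hZ
  have hZ0 : 0 < Z := integral_exp_pos hg
  have hpr : IsProbabilityMeasure (μ.tilted g) := isProbabilityMeasure_tilted hg
  set Q : EuclideanSpace ℝ (Fin n) → ℝ :=
    fun x => (∑ i ∈ S, inner ℝ (v i) x ^ 2) / (2 * a ^ 2) with hQ
  have hQ0 : ∀ x, 0 ≤ Q x := fun x => by
    apply div_nonneg (Finset.sum_nonneg fun i _ => sq_nonneg _) (by positivity)
  have hQm : Measurable Q := by
    rw [hQ]; fun_prop
  set M : ℝ := 2 * √2 ^ S.card with hM
  have hM0 : 0 < M := by positivity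
  have hexp : Integrable (fun x => exp (Q x)) μ := by
    refine ⟨by fun_prop, ?_⟩
    rw [hasFiniteIntegral_iff_ofReal (Filter.Eventually.of_forall fun x => (exp_pos _).le)]
    exact lt_of_le_of_lt (gibbs ha hsub hv S) ENNReal.ofReal_lt_top
  have hexpI : ∫ x, exp (Q x) ∂μ ≤ M := by
    rw [integral_eq_lintegral_of_nonneg_ae (Filter.Eventually.of_forall fun x => (exp_pos _).le)
      (by fun_prop)]
    exact ENNReal.toReal_le_of_le_ofReal hM0.le (gibbs ha hsub hv S)
  -- the function `e^u`, `u = Q - g + log Z`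
  have hu : Integrable (fun x => exp (Q x - g x + log Z)) (μ.tilted g) := by
    rw [integrable_tilted_iff]
    · have e : (fun x => (exp (g x)) • exp (Q x - g x + log Z))
          = fun x => Z * exp (Q x) := by
        funext x
        rw [smul_eq_mul, ← exp_add,
          show g x + (Q x - g x + log Z) = log Z + Q x by ring, exp_add, exp_log hZ0]
      rw [e]
      exact hexp.const_mul Z
    · exact hg
  have huI : ∫ x, exp (Q x - g x + log Z) ∂(μ.tilted g) ≤ M := by
    rw [integral_tilted]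
    have e : (fun x => (exp (g x) / ∫ x, exp (g x) ∂μ) • exp (Q x - g x + log Z))
        = fun x => exp (Q x) := by
      funext x
      rw [← hZ, smul_eq_mul, div_mul_eq_mul_div, ← exp_add,
        show g x + (Q x - g x + log Z) = log Z + Q x by ring, exp_add, exp_log hZ0]
      field_simp
    rw [e]
    exact hexpI
  have hcs2 : Integrable (fun x => g x + (log M - 1 - log Z)) (μ.tilted g) :=
    hg2.add (integrable_const _)
  have hcst : Integrable (fun x => exp (Q x - g x + log Z) / M + (g x + (log M - 1 - log Z)))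
      (μ.tilted g) := (hu.div_const M).add hcs2
  have hpt : ∀ x, Q x ≤ exp (Q x - g x + log Z) / M + (g x + (log M - 1 - log Z)) := by
    intro x
    have h1 := add_one_le_exp (Q x - g x + log Z - log M)
    rw [exp_sub, exp_log hM0] at h1
    linarith
  have hQi : Integrable Q (μ.tilted g) := by
    refine hcst.mono' hQm.aestronglyMeasurable (Filter.Eventually.of_forall fun x => ?_)
    rw [norm_of_nonneg (hQ0 x)]
    exact hpt x
  have hQI : ∫ x, Q x ∂(μ.tilted g) ≤ (∫ x, g x ∂(μ.tilted g)) - log Z + log M := by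
    have h1 := integral_mono hQi hcst hpt
    have h3 : ∫ x, (exp (Q x - g x + log Z) / M + (g x + (log M - 1 - log Z))) ∂(μ.tilted g)
        = (∫ x, exp (Q x - g x + log Z) ∂(μ.tilted g)) / M
          + ((∫ x, g x ∂(μ.tilted g)) + (log M - 1 - log Z)) := by
      rw [integral_add (hu.div_const M) hcs2, integral_div,
        integral_add hg2 (integrable_const _)]
      simp only [integral_const, probReal_univ, smul_eq_mul, one_mul]
    rw [h3] at h1
    have h2 : (∫ x, exp (Q x - g x + log Z) ∂(μ.tilted g)) / M ≤ 1 := by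
      rw [div_le_one hM0]
      exact huI
    linarith
  have hsum : ∀ x, ∑ i ∈ S, inner ℝ (v i) x ^ 2 = (2 * a ^ 2) * Q x := by
    intro x
    rw [hQ]
    field_simp
  refine ⟨?_, ?_⟩
  · simp_rw [hsum]
    exact hQi.const_mul _
  · simp_rw [hsum]
    rw [integral_const_mul]
    exact mul_le_mul_of_nonneg_left hQI (by positivity)

/-- each square `⟨v i, x⟩²` is integrable under the tilt -/
theorem integrable_inner_sq {μ : Measure (EuclideanSpace ℝ (Fin n))} [IsProbabilityMeasure μ]
    {a : ℝ} (ha : 0 < a) (hsub : LinearlySubgaussian μ a)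
    {v : Fin n → EuclideanSpace ℝ (Fin n)} (hv : Orthonormal ℝ v) (i : Fin n)
    {g : EuclideanSpace ℝ (Fin n) → ℝ} (hg : Integrable (fun x => exp (g x)) μ)
    (hg2 : Integrable g (μ.tilted g)) :
    Integrable (fun x => inner ℝ (v i) x ^ 2) (μ.tilted g) := by
  simpa using (gibbs_tilted ha hsub hv {i} hg hg2).1

end Vale.Agent.P245.H767
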