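import Mathlib
import Vale.Agent.P245.Defs
import Vale.Agent.P245.H767.Gibbs

/-!
# Tilts of a linearly subgaussian law by Lipschitz functions (row TILT of helper607)
-/

open MeasureTheory Real ProbabilityTheory
open scoped ENNReal

namespace Vale.Agent.P245.H767

variable {n : ℕ}

/-- `e^{|x|²/(2a²)}` is integrable -/
theorem integrable_exp_norm_sq {μ : Measure (EuclideanSpace ℝ (Fin n))} [IsProbabilityMeasure μ]
    {a : ℝ} (ha : 0 < a) (hsub : LinearlySubgaussian μ a) :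
    Integrable (fun x => exp (‖x‖ ^ 2 / (2 * a ^ 2))) μ := by
  have h := gibbs ha hsub (EuclideanSpace.basisFun (Fin n) ℝ).orthonormal Finset.univ
  have e : ∀ x : EuclideanSpace ℝ (Fin n),
      ∑ i, inner ℝ ((EuclideanSpace.basisFun (Fin n) ℝ) i) x ^ 2 = ‖x‖ ^ 2 := by
    intro x
    have := (EuclideanSpace.basisFun (Fin n) ℝ).sum_sq_norm_inner_right x
    simpa using this
  simp_rw [e] at h
  refine ⟨by fun_prop, ?_⟩
  rw [hasFiniteIntegral_iff_ofReal (Filter.Eventually.of_forall fun x => (exp_pos _).le)]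
  exact lt_of_le_of_lt h ENNReal.ofReal_lt_top

/-- `e^{-sF} ≤ C e^{|x|²/(4a²)}` -/
theorem exp_lip_le {a : ℝ} (ha : 0 < a) {F : EuclideanSpace ℝ (Fin n) → ℝ}
    (hF : LipschitzWith 1 F) (s : ℝ) (x : EuclideanSpace ℝ (Fin n)) :
    exp (-s * F x) ≤ exp (|s| * |F 0| + s ^ 2 * a ^ 2) * exp (‖x‖ ^ 2 / (4 * a ^ 2)) := by
  rw [← exp_add]
  apply exp_le_exp.2
  have h1 : |F x - F 0| ≤ ‖x‖ := by
    have := hF.dist_le_mul x 0
    simpa [dist_eq_norm] using this
  have h2 : |F x| ≤ |F 0| + ‖x‖ := by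
    have := abs_sub_abs_le_abs_sub (F x) (F 0)
    linarith
  have h3 : -s * F x ≤ |s| * |F x| := by
    calc -s * F x ≤ |(-s) * F x| := le_abs_self _
      _ = |s| * |F x| := by rw [abs_mul, abs_neg]
  have h4 : |s| * |F x| ≤ |s| * |F 0| + |s| * ‖x‖ := by
    nlinarith [abs_nonneg s]
  have h5 : |s| * ‖x‖ ≤ s ^ 2 * a ^ 2 + ‖x‖ ^ 2 / (4 * a ^ 2) := by
    have h6 : ‖x‖ ^ 2 / (4 * a ^ 2) = (‖x‖ / (2 * a)) ^ 2 := by
      rw [div_pow]; congr 1; ring
    have h7 : |s| * ‖x‖ = 2 * (|s| * a) * (‖x‖ / (2 * a)) := by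
      field_simp
    have h8 : s ^ 2 * a ^ 2 = (|s| * a) ^ 2 := by rw [mul_pow, sq_abs]
    rw [h6, h7, h8]
    nlinarith [sq_nonneg (|s| * a - ‖x‖ / (2 * a))]
  linarith

/-- **(T1)** -/
theorem tilt_int {μ : Measure (EuclideanSpace ℝ (Fin n))} [IsProbabilityMeasure μ]
    {a : ℝ} (ha : 0 < a) (hsub : LinearlySubgaussian μ a) {F : EuclideanSpace ℝ (Fin n) → ℝ}
    (hF : LipschitzWith 1 F) (s : ℝ) : Integrable (fun x => exp (-s * F x)) μ := by
  have hc : Continuous F := hF.continuous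
  refine ((integrable_exp_norm_sq ha hsub).const_mul
    (exp (|s| * |F 0| + s ^ 2 * a ^ 2))).mono' (by fun_prop)
    (Filter.Eventually.of_forall fun x => ?_)
  rw [norm_of_nonneg (exp_pos _).le]
  refine (exp_lip_le ha hF s x).trans ?_
  gcongr
  · norm_num

/-- **(T1)**, second moments -/
theorem tilt_int_sq {μ : Measure (EuclideanSpace ℝ (Fin n))} [IsProbabilityMeasure μ]
    {a : ℝ} (ha : 0 < a) (hsub : LinearlySubgaussian μ a) {F : EuclideanSpace ℝ (Fin n) → ℝ}
    (hF : LipschitzWith 1 F) (s : ℝ) : Integrable (fun x => ‖x‖ ^ 2 * exp (-s * F x)) μ := by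
  have hc : Continuous F := hF.continuous
  refine ((integrable_exp_norm_sq ha hsub).const_mul
    (4 * a ^ 2 * exp (|s| * |F 0| + s ^ 2 * a ^ 2))).mono' (by fun_prop)
    (Filter.Eventually.of_forall fun x => ?_)
  rw [norm_of_nonneg (by positivity)]
  have h1 := exp_lip_le ha hF s x
  have h2 : ‖x‖ ^ 2 ≤ 4 * a ^ 2 * exp (‖x‖ ^ 2 / (4 * a ^ 2)) := by
    have h3 := add_one_le_exp (‖x‖ ^ 2 / (4 * a ^ 2))
    have h4 : ‖x‖ ^ 2 = 4 * a ^ 2 * (‖x‖ ^ 2 / (4 * a ^ 2)) := by field_simp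
    calc ‖x‖ ^ 2 = 4 * a ^ 2 * (‖x‖ ^ 2 / (4 * a ^ 2)) := h4
      _ ≤ 4 * a ^ 2 * exp (‖x‖ ^ 2 / (4 * a ^ 2)) := by
        apply mul_le_mul_of_nonneg_left _ (by positivity)
        linarith
  calc ‖x‖ ^ 2 * exp (-s * F x)
      ≤ (4 * a ^ 2 * exp (‖x‖ ^ 2 / (4 * a ^ 2)))
        * (exp (|s| * |F 0| + s ^ 2 * a ^ 2) * exp (‖x‖ ^ 2 / (4 * a ^ 2))) := by
        gcongr
    _ = 4 * a ^ 2 * exp (|s| * |F 0| + s ^ 2 * a ^ 2)
        * (exp (‖x‖ ^ 2 / (4 * a ^ 2)) * exp (‖x‖ ^ 2 / (4 * a ^ 2))) := by ring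
    _ = 4 * a ^ 2 * exp (|s| * |F 0| + s ^ 2 * a ^ 2) * exp (‖x‖ ^ 2 / (2 * a ^ 2)) := by
        rw [← exp_add]
        congr 2
        ring

/-- `|x|²` is integrable under the tilt -/
theorem tilted_norm_sq {μ : Measure (EuclideanSpace ℝ (Fin n))} [IsProbabilityMeasure μ]
    {a : ℝ} (ha : 0 < a) (hsub : LinearlySubgaussian μ a) {F : EuclideanSpace ℝ (Fin n) → ℝ}
    (hF : LipschitzWith 1 F) (s : ℝ) :
    Integrable (fun x => ‖x‖ ^ 2) (μ.tilted fun x => -s * F x) := by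
  rw [integrable_tilted_iff (tilt_int ha hsub hF s)]
  refine (tilt_int_sq ha hsub hF s).congr (Filter.Eventually.of_forall fun x => ?_)
  simp only [smul_eq_mul]
  ring

/-- `F` is integrable under the tilt -/
theorem tilted_lip {μ : Measure (EuclideanSpace ℝ (Fin n))} [IsProbabilityMeasure μ]
    {a : ℝ} (ha : 0 < a) (hsub : LinearlySubgaussian μ a) {F : EuclideanSpace ℝ (Fin n) → ℝ}
    (hF : LipschitzWith 1 F) (s : ℝ) : Integrable F (μ.tilted fun x => -s * F x) := by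
  have hp : IsProbabilityMeasure (μ.tilted fun x => -s * F x) :=
    isProbabilityMeasure_tilted (tilt_int ha hsub hF s)
  have hc : Continuous F := hF.continuous
  refine ((integrable_const (|F 0| + 1)).add (tilted_norm_sq ha hsub hF s)).mono'
    (by fun_prop) (Filter.Eventually.of_forall fun x => ?_)
  have h1 : |F x - F 0| ≤ ‖x‖ := by
    have := hF.dist_le_mul x 0
    simpa [dist_eq_norm] using this
  have h2 := abs_sub_abs_le_abs_sub (F x) (F 0)
  simp only [norm_eq_abs, Pi.add_apply]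
  nlinarith [sq_nonneg (‖x‖ - 1 / 2)]

/-- **(T2)** a convex tilt of a log-concave law is log-concave -/
theorem tilted_logConcave {μ : Measure (EuclideanSpace ℝ (Fin n))} [IsProbabilityMeasure μ]
    {a : ℝ} (ha : 0 < a) (hsub : LinearlySubgaussian μ a) (hlc : HasLogConcaveDensity μ)
    {F : EuclideanSpace ℝ (Fin n) → ℝ}
    (hF : LipschitzWith 1 F) (hconv : ConvexOn ℝ Set.univ F) {s : ℝ} (hs : 0 ≤ s) :
    HasLogConcaveDensity (μ.tilted fun x => -s * F x) := by
  obtain ⟨ρ, hm, h0, hco, hμ⟩ := hlc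
  have hc : Continuous F := hF.continuous
  have hi := tilt_int ha hsub hF s
  set Z : ℝ := ∫ x, exp (-s * F x) ∂μ with hZ
  have hZ0 : 0 < Z := integral_exp_pos hi
  have hpos : ∀ x, 0 < exp (-s * F x) / Z := fun x => div_pos (exp_pos _) hZ0
  have hset : {x | 0 < ρ x * (exp (-s * F x) / Z)} = {x | 0 < ρ x} := by
    ext x
    simp only [Set.mem_ofPred_eq]
    exact ⟨fun h => by
      by_contra h'
      have : ρ x = 0 := le_antisymm (not_lt.1 h') (h0 x)
      rw [this, zero_mul] at h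
      exact lt_irrefl _ h, fun h => mul_pos h (hpos x)⟩
  refine ⟨fun x => ρ x * (exp (-s * F x) / Z), by fun_prop,
    fun x => mul_nonneg (h0 x) (hpos x).le, ?_, ?_⟩
  · rw [hset]
    have h1 : ConcaveOn ℝ {x | 0 < ρ x}
        (fun x => Real.log (ρ x) + (-(s * F x) + -Real.log Z)) := by
      refine hco.add (ConcaveOn.add ?_ (concaveOn_const _ hco.1))
      have h2 : ConvexOn ℝ {x | 0 < ρ x} (fun x => s * F x) :=
        (hconv.subset (Set.subset_univ _) hco.1).smul hs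
      exact h2.neg
    refine h1.congr fun x hx => ?_
    simp only [Set.mem_ofPred_eq] at hx
    rw [Real.log_mul hx.ne' (hpos x).ne', Real.log_div (exp_pos _).ne' hZ0.ne', Real.log_exp]
    ring
  · have e1 : (μ.tilted fun x => -s * F x)
        = μ.withDensity (fun x => ENNReal.ofReal (exp (-s * F x) / Z)) := rfl
    rw [e1]
    conv_lhs => rw [hμ]
    rw [← withDensity_mul _ (by fun_prop) (by fun_prop)]
    congr 1
    funext x
    rw [Pi.mul_apply, ← ENNReal.ofReal_mul (h0 x)]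

/-- **(T4)** -/
theorem continuous_tilted {μ : Measure (EuclideanSpace ℝ (Fin n))} [IsProbabilityMeasure μ]
    {a : ℝ} (ha : 0 < a) (hsub : LinearlySubgaussian μ a) {F : EuclideanSpace ℝ (Fin n) → ℝ}
    (hF : LipschitzWith 1 F) :
    Continuous (fun s : ℝ => ∫ x, F x ∂(μ.tilted fun x => -s * F x)) := by
  have hset : integrableExpSet F μ = Set.univ := by
    ext t
    simp only [integrableExpSet, Set.mem_ofPred_eq, Set.mem_univ, iff_true]
    have := tilt_int ha hsub hF (-t)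
    simpa using this
  have h1 : ∀ s : ℝ, ∫ x, F x ∂(μ.tilted fun x => -s * F x) = deriv (cgf F μ) (-s) := by
    intro s
    exact integral_tilted_mul_self (by rw [hset, interior_univ]; trivial)
  simp_rw [h1]
  have h2 : AnalyticOnNhd ℝ (cgf F μ) Set.univ := by
    have := analyticOnNhd_cgf (X := F) (μ := μ)
    rwa [hset, interior_univ] at this
  have h3 : Continuous (deriv (cgf F μ)) := by
    rw [continuous_iff_continuousAt]
    intro t
    exact (h2.deriv t trivial).continuousAt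
  exact h3.comp continuous_neg

end Vale.Agent.P245.H767
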