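import Mathlib
import Vale.Agent.P245.Defs
import Vale.Agent.P245.H767.Tilt

/-!
# One step along the exponential family `μ.tilted (-sF)`
-/

open MeasureTheory Real ProbabilityTheory
open scoped ENNReal

namespace Vale.Agent.P245.H767

/-- Cauchy-Schwarz -/
theorem cs_sq {Ω : Type*} [MeasurableSpace Ω] {ν : Measure Ω} {f g : Ω → ℝ} (hf : MemLp f 2 ν)
    (hg : MemLp g 2 ν) :
    (∫ x, f x * g x ∂ν) ^ 2 ≤ (∫ x, f x ^ 2 ∂ν) * ∫ x, g x ^ 2 ∂ν := by
  have h1 : Integrable (fun x => f x ^ 2) ν := hf.integrable_sq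
  have h2 : Integrable (fun x => g x ^ 2) ν := hg.integrable_sq
  have h3 : Integrable (fun x => f x * g x) ν := hf.integrable_mul hg
  have key : ∀ t : ℝ, 0 ≤ (∫ x, g x ^ 2 ∂ν) * (t * t) + (2 * ∫ x, f x * g x ∂ν) * t
      + ∫ x, f x ^ 2 ∂ν := by
    intro t
    have e : ∫ x, (f x + t * g x) ^ 2 ∂ν = (∫ x, g x ^ 2 ∂ν) * (t * t)
        + (2 * ∫ x, f x * g x ∂ν) * t + ∫ x, f x ^ 2 ∂ν := by
      have e1 : ∀ x, (f x + t * g x) ^ 2 = (t * t) * g x ^ 2 + ((2 * t) * (f x * g x) + f x ^ 2) := by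
        intro x; ring
      simp_rw [e1]
      have i1 : Integrable (fun x => (2 * t) * (f x * g x) + f x ^ 2) ν :=
        (h3.const_mul _).add h1
      rw [integral_add (h2.const_mul _) i1, integral_const_mul,
        integral_add (h3.const_mul _) h1, integral_const_mul]
      ring
    rw [← e]
    exact integral_nonneg fun x => sq_nonneg _
  have h := discrim_le_zero key
  rw [discrim] at h
  nlinarith [h]

theorem cs {Ω : Type*} [MeasurableSpace Ω] {ν : Measure Ω} {f g : Ω → ℝ} (hf : MemLp f 2 ν)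
    (hg : MemLp g 2 ν) :
    ∫ x, f x * g x ∂ν ≤ √(∫ x, f x ^ 2 ∂ν) * √(∫ x, g x ^ 2 ∂ν) := by
  rw [← Real.sqrt_mul (integral_nonneg fun x => sq_nonneg _)]
  exact (le_abs_self _).trans (Real.abs_le_sqrt (cs_sq hf hg))

/-- change of means under a tilt -/
theorem tilt_step {Ω : Type*} [MeasurableSpace Ω] {ν : Measure Ω} [IsProbabilityMeasure ν]
    {k u : Ω → ℝ} (hk : Integrable (fun x => exp (k x)) ν)
    (hk2 : Integrable (fun x => exp (2 * k x)) ν) (hu : MemLp u 2 ν) :
    (∫ x, u x ∂ν) - ∫ x, u x ∂(ν.tilted k)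
      ≤ √((∫ x, u x ^ 2 ∂ν) - (∫ x, u x ∂ν) ^ 2)
        * √((∫ x, exp (2 * k x) ∂ν) / (∫ x, exp (k x) ∂ν) ^ 2 - 1) := by
  set Z : ℝ := ∫ x, exp (k x) ∂ν with hZ
  have hZ0 : 0 < Z := integral_exp_pos hk
  set m : ℝ := ∫ x, u x ∂ν with hm
  have hkm : AEMeasurable k ν := aemeasurable_of_aemeasurable_exp hk.1.aemeasurable
  have hr : MemLp (fun x => exp (k x) / Z) 2 ν := by
    rw [memLp_two_iff_integrable_sq (by fun_prop)]
    have e : (fun x => (exp (k x) / Z) ^ 2) = fun x => exp (2 * k x) / Z ^ 2 := by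
      funext x
      rw [div_pow, ← exp_nat_mul]
      norm_num
    rw [e]
    exact hk2.div_const _
  have hu1 : Integrable u ν := hu.integrable (by norm_num)
  have hr1 : Integrable (fun x => exp (k x) / Z) ν := hr.integrable (by norm_num)
  have hrI : ∫ x, exp (k x) / Z ∂ν = 1 := by
    rw [integral_div, ← hZ, div_self hZ0.ne']
  have hru : Integrable (fun x => exp (k x) / Z * u x) ν := hr.integrable_mul hu
  have e1 : m - ∫ x, u x ∂(ν.tilted k)
      = ∫ x, (u x - m) * (1 - exp (k x) / Z) ∂ν := by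
    rw [integral_tilted, ← hZ]
    have e2 : ∀ x, (u x - m) * (1 - exp (k x) / Z)
        = (u x - exp (k x) / Z * u x) + m * (exp (k x) / Z - 1) := by
      intro x; ring
    simp_rw [e2, smul_eq_mul]
    have i1 : Integrable (fun x => u x - exp (k x) / Z * u x) ν := hu1.sub hru
    have i2 : Integrable (fun x => exp (k x) / Z - 1) ν := hr1.sub (integrable_const _)
    rw [integral_add i1 (i2.const_mul _), integral_sub hu1 hru, integral_const_mul,
      integral_sub hr1 (integrable_const _), hrI]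
    simp [← hm]
  have hum : MemLp (fun x => u x - m) 2 ν := hu.sub (memLp_const m)
  have hrm : MemLp (fun x => 1 - exp (k x) / Z) 2 ν := (memLp_const 1).sub hr
  rw [e1]
  refine (cs hum hrm).trans (le_of_eq ?_)
  congr 2
  · have e3 : ∀ x, (u x - m) ^ 2 = u x ^ 2 - (2 * m) * u x + m ^ 2 := by
      intro x; ring
    simp_rw [e3]
    have i1 : Integrable (fun x => u x ^ 2 - (2 * m) * u x) ν :=
      hu.integrable_sq.sub (hu1.const_mul _)
    rw [integral_add i1 (integrable_const _),
      integral_sub hu.integrable_sq (hu1.const_mul _), integral_const_mul, ← hm]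
    simp only [integral_const, probReal_univ, smul_eq_mul, one_mul]
    ring
  · have e3 : ∀ x, (1 - exp (k x) / Z) ^ 2 = exp (2 * k x) / Z ^ 2 + (1 - 2 * (exp (k x) / Z)) := by
      intro x
      have : exp (2 * k x) = exp (k x) ^ 2 := by
        rw [← exp_nat_mul]; norm_num
      rw [this]
      ring
    simp_rw [e3]
    have i1 : Integrable (fun x => 1 - 2 * (exp (k x) / Z)) ν :=
      (integrable_const _).sub (hr1.const_mul _)
    rw [integral_add (hk2.div_const _) i1,
      integral_div, integral_sub (integrable_const _) (hr1.const_mul _), integral_const_mul, hrI]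
    simp only [integral_const, probReal_univ, smul_eq_mul, one_mul]
    ring

variable {Ω : Type*} [MeasurableSpace Ω] {μ : Measure Ω}

/-- the family `ν_s = μ.tilted (-sF)` is a one parameter family -/
theorem tilted_add {F : Ω → ℝ} (hF : ∀ s : ℝ, Integrable (fun x => exp (-s * F x)) μ) (s h : ℝ) :
    (μ.tilted fun x => -s * F x).tilted (fun x => -h * F x)
      = μ.tilted fun x => -(s + h) * F x := by
  rw [tilted_tilted (hF s)]
  congr 1
  funext x
  simp only [Pi.add_apply]
  ring

/-- exponential moments of the family -/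
theorem integral_exp_tilted' {F : Ω → ℝ} (s h : ℝ) :
    ∫ x, exp (-h * F x) ∂(μ.tilted fun x => -s * F x)
      = (∫ x, exp (-(s + h) * F x) ∂μ) / ∫ x, exp (-s * F x) ∂μ := by
  rw [integral_exp_tilted]
  congr 1
  apply integral_congr_ae
  filter_upwards with x
  simp only [Pi.add_apply]
  congr 1
  ring

theorem integrable_exp_tilted' {F : Ω → ℝ} (hF : ∀ s : ℝ, Integrable (fun x => exp (-s * F x)) μ)
    (s h : ℝ) :
    Integrable (fun x => exp (-h * F x)) (μ.tilted fun x => -s * F x) := by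
  rw [integrable_tilted_iff (hF s)]
  refine (hF (s + h)).congr (Filter.Eventually.of_forall fun x => ?_)
  simp only [smul_eq_mul]
  rw [← exp_add]
  congr 1
  ring

/-- **one step of the telescoping sum**: `(E_s - E_{s+h}) u ≤ Var_s(u)^{1/2} (e^{Δ²G} - 1)^{1/2}`,
where `G(s) = log ∫ e^{-sF} dμ` and `Δ²G = G(s+2h) - 2 G(s+h) + G(s)`. -/
theorem family_step [IsProbabilityMeasure μ] {F u : Ω → ℝ} (hF : ∀ s : ℝ, Integrable (fun x => exp (-s * F x)) μ)
    (s h : ℝ) (hu : MemLp u 2 (μ.tilted fun x => -s * F x)) :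
    (∫ x, u x ∂(μ.tilted fun x => -s * F x)) - ∫ x, u x ∂(μ.tilted fun x => -(s + h) * F x)
      ≤ √((∫ x, u x ^ 2 ∂(μ.tilted fun x => -s * F x))
          - (∫ x, u x ∂(μ.tilted fun x => -s * F x)) ^ 2)
        * √(exp (log (∫ x, exp (-(s + 2 * h) * F x) ∂μ) - 2 * log (∫ x, exp (-(s + h) * F x) ∂μ)
          + log (∫ x, exp (-s * F x) ∂μ)) - 1) := by
  have hp : IsProbabilityMeasure (μ.tilted fun x => -s * F x) := isProbabilityMeasure_tilted (hF s)
  have h2 : Integrable (fun x => exp (2 * (-h * F x))) (μ.tilted fun x => -s * F x) := by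
    refine (integrable_exp_tilted' hF s (2 * h)).congr (Filter.Eventually.of_forall fun x => ?_)
    simp only
    congr 1
    ring
  have h1 := tilt_step (integrable_exp_tilted' hF s h) h2 hu
  rw [tilted_add hF] at h1
  refine h1.trans (le_of_eq ?_)
  congr 3
  have e2 : ∫ x, exp (2 * (-h * F x)) ∂(μ.tilted fun x => -s * F x)
      = (∫ x, exp (-(s + 2 * h) * F x) ∂μ) / ∫ x, exp (-s * F x) ∂μ := by
    rw [← integral_exp_tilted' s (2 * h)]
    congr 1
    funext x
    congr 1
    ring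
  rw [e2, integral_exp_tilted']
  have p0 : 0 < ∫ x, exp (-s * F x) ∂μ := integral_exp_pos (hF s)
  have p1 : 0 < ∫ x, exp (-(s + h) * F x) ∂μ := integral_exp_pos (hF (s + h))
  have p2 : 0 < ∫ x, exp (-(s + 2 * h) * F x) ∂μ := integral_exp_pos (hF (s + 2 * h))
  rw [exp_add, exp_sub, exp_log p0, exp_log p2, two_mul (log _), exp_add, exp_log p1]
  field_simp

end Vale.Agent.P245.H767
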