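import Mathlib
import Vale.Agent.P245.H767.Step

/-!
# The telescoping error along the exponential family
-/

open MeasureTheory Real ProbabilityTheory Filter Topology
open scoped ENNReal

namespace Vale.Agent.P245.H767

/-- second differences are `O(h²)` -/
theorem second_diff_le {G G' : ℝ → ℝ} {M T : ℝ} (hG : ∀ x, HasDerivAt G (G' x) x)
    (hL : ∀ x ∈ Set.Icc 0 T, ∀ y ∈ Set.Icc 0 T, |G' x - G' y| ≤ M * |x - y|)
    {x h : ℝ} (hx : 0 ≤ x) (hh : 0 ≤ h) (hT : x + 2 * h ≤ T) :
    |G (x + 2 * h) - 2 * G (x + h) + G x| ≤ M * h ^ 2 := by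
  have hφ : ∀ y ∈ Set.Icc x (x + h), HasDerivWithinAt (fun y => G (y + h) - G y)
      (G' (y + h) - G' y) (Set.Icc x (x + h)) y := by
    intro y _
    have h1 : HasDerivAt (fun y => G (y + h)) (G' (y + h)) y := by
      simpa using (hG (y + h)).comp_add_const y h
    exact (h1.sub (hG y)).hasDerivWithinAt
  have hb : ∀ y ∈ Set.Icc x (x + h), ‖G' (y + h) - G' y‖ ≤ M * h := by
    intro y hy
    have := hL (y + h) ⟨by linarith [hy.1], by linarith [hy.2]⟩ y
      ⟨by linarith [hy.1], by linarith [hy.2]⟩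
    rw [norm_eq_abs]
    simpa [abs_of_nonneg hh] using this
  have h3 := Convex.norm_image_sub_le_of_norm_hasDerivWithin_le hφ hb (convex_Icc x (x + h))
    (x := x) (y := x + h) ⟨le_refl _, by linarith⟩ ⟨by linarith, le_refl _⟩
  rw [norm_eq_abs, norm_eq_abs] at h3
  have e1 : G (x + h + h) - G (x + h) - (G (x + h) - G x)
      = G (x + 2 * h) - 2 * G (x + h) + G x := by
    rw [show x + h + h = x + 2 * h by ring]; ring
  rw [e1, show x + h - x = h by ring, abs_of_nonneg hh] at h3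
  nlinarith [h3]

/-- the telescoping sum of second differences -/
theorem sum_second_diff (G : ℝ → ℝ) (h : ℝ) (N : ℕ) :
    ∑ i ∈ Finset.range N, (G (i * h + 2 * h) - 2 * G (i * h + h) + G (i * h))
      = (G (N * h + h) - G (N * h)) - (G h - G 0) := by
  induction N with
  | zero => simp
  | succ N ih =>
    rw [Finset.sum_range_succ, ih]
    push_cast
    rw [show ((N : ℝ) + 1) * h + h = N * h + 2 * h by ring,
      show ((N : ℝ) + 1) * h = N * h + h by ring]
    ring

/-- **the limit of the telescoping error** -/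
theorem tendsto_sum_exp {G G' : ℝ → ℝ} {M t : ℝ} (ht : 0 < t)
    (hG : ∀ x, HasDerivAt G (G' x) x)
    (hL : ∀ x ∈ Set.Icc 0 (2 * t), ∀ y ∈ Set.Icc 0 (2 * t), |G' x - G' y| ≤ M * |x - y|) :
    Tendsto (fun N : ℕ => (t / N)⁻¹ * ∑ i ∈ Finset.range N,
      (exp (G (i * (t / N) + 2 * (t / N)) - 2 * G (i * (t / N) + t / N) + G (i * (t / N))) - 1))
      atTop (𝓝 (G' t - G' 0)) := by
  have hh0 : Tendsto (fun N : ℕ => t / (N : ℝ)) atTop (𝓝 0) :=
    tendsto_const_div_atTop_nhds_zero_nat t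
  -- the linear part
  have h1 : Tendsto (fun N : ℕ => (t / (N : ℝ))⁻¹ * ((G (t + t / N) - G t) - (G (t / N) - G 0)))
      atTop (𝓝 (G' t - G' 0)) := by
    have hne : Tendsto (fun N : ℕ => t / (N : ℝ)) atTop (𝓝[≠] 0) := by
      rw [tendsto_nhdsWithin_iff]
      refine ⟨hh0, ?_⟩
      filter_upwards [eventually_gt_atTop 0] with N hN
      have : (0 : ℝ) < N := by exact_mod_cast hN
      exact (div_pos ht this).ne'
    have a1 := (hasDerivAt_iff_tendsto_slope_zero.1 (hG t)).comp hne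
    have a2 := (hasDerivAt_iff_tendsto_slope_zero.1 (hG 0)).comp hne
    refine (a1.sub a2).congr fun N => ?_
    simp only [Function.comp, smul_eq_mul, zero_add]
    ring
  -- the error
  have h2 : Tendsto (fun N : ℕ => M ^ 2 * t * (t / (N : ℝ)) ^ 2) atTop (𝓝 0) := by
    have := (hh0.pow 2).const_mul (M ^ 2 * t)
    simpa using this
  have hsm : ∀ᶠ N : ℕ in atTop, M * (t / (N : ℝ)) ^ 2 ≤ 1 := by
    have : Tendsto (fun N : ℕ => M * (t / (N : ℝ)) ^ 2) atTop (𝓝 0) := by
      simpa using (hh0.pow 2).const_mul M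
    filter_upwards [this.eventually (gt_mem_nhds (show (0 : ℝ) < 1 by norm_num))] with N hN
    exact hN.le
  have h3 : ∀ᶠ N : ℕ in atTop, |(t / (N : ℝ))⁻¹ * ∑ i ∈ Finset.range N,
      (exp (G (i * (t / N) + 2 * (t / N)) - 2 * G (i * (t / N) + t / N) + G (i * (t / N))) - 1)
      - (t / (N : ℝ))⁻¹ * ((G (t + t / N) - G t) - (G (t / N) - G 0))|
      ≤ M ^ 2 * t * (t / (N : ℝ)) ^ 2 := by
    filter_upwards [hsm, eventually_gt_atTop 0] with N hN hN0
    have hNp : (0 : ℝ) < N := by exact_mod_cast hN0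
    set h : ℝ := t / N with hh
    have hhp : 0 < h := div_pos ht hNp
    have hNh : (N : ℝ) * h = t := by rw [hh]; field_simp
    have htel := sum_second_diff G h N
    rw [hNh] at htel
    rw [← htel, ← mul_sub, ← Finset.sum_sub_distrib, abs_mul, abs_of_pos (inv_pos.2 hhp)]
    have hterm : ∀ i ∈ Finset.range N,
        |exp (G (i * h + 2 * h) - 2 * G (i * h + h) + G (i * h)) - 1
          - (G (i * h + 2 * h) - 2 * G (i * h + h) + G (i * h))| ≤ (M * h ^ 2) ^ 2 := by
      intro i hi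
      have hi' : (i : ℝ) + 1 ≤ N := by
        have := Finset.mem_range.1 hi
        exact_mod_cast this
      have hb := second_diff_le hG hL (x := i * h) (h := h) (by positivity) hhp.le (by
        have h5 : ((i : ℝ) + 1) * h ≤ N * h := mul_le_mul_of_nonneg_right hi' hhp.le
        have h6 : h ≤ N * h := by
          have : (1 : ℝ) ≤ N := by exact_mod_cast hN0
          nlinarith
        nlinarith)
      set D : ℝ := G (i * h + 2 * h) - 2 * G (i * h + h) + G (i * h) with hD
      have hD1 : |D| ≤ 1 := hb.trans hN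
      refine (Real.abs_exp_sub_one_sub_id_le hD1).trans ?_
      rw [← sq_abs D]
      exact pow_le_pow_left₀ (abs_nonneg _) hb 2
    calc h⁻¹ * |∑ i ∈ Finset.range N,
          (exp (G (i * h + 2 * h) - 2 * G (i * h + h) + G (i * h)) - 1
          - (G (i * h + 2 * h) - 2 * G (i * h + h) + G (i * h)))|
        ≤ h⁻¹ * ∑ i ∈ Finset.range N, (M * h ^ 2) ^ 2 := by
          apply mul_le_mul_of_nonneg_left _ (inv_nonneg.2 hhp.le)
          exact (Finset.abs_sum_le_sum_abs _ _).trans (Finset.sum_le_sum hterm)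
      _ = M ^ 2 * (N * h) * h ^ 2 := by
          rw [Finset.sum_const, Finset.card_range, nsmul_eq_mul]
          field_simp
      _ = M ^ 2 * t * h ^ 2 := by rw [hNh]
  have h4 : Tendsto (fun N : ℕ => (t / (N : ℝ))⁻¹ * ∑ i ∈ Finset.range N,
      (exp (G (i * (t / N) + 2 * (t / N)) - 2 * G (i * (t / N) + t / N) + G (i * (t / N))) - 1)
      - (t / (N : ℝ))⁻¹ * ((G (t + t / N) - G t) - (G (t / N) - G 0))) atTop (𝓝 0) := by
    exact squeeze_zero_norm' (by simpa using h3) h2
  have h5 := h4.add h1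
  simpa using h5

variable {Ω : Type*} [MeasurableSpace Ω] {μ : Measure Ω}

theorem expSet {F : Ω → ℝ} (hF : ∀ s : ℝ, Integrable (fun x => exp (-s * F x)) μ) :
    integrableExpSet F μ = Set.univ := by
  ext t
  simp only [integrableExpSet, Set.mem_ofPred_eq, Set.mem_univ, iff_true]
  simpa using hF (-t)

/-- `G(s) = log ∫ e^{-sF} dμ` has derivative `-∫ F dν_s` -/
theorem hasDerivAt_G {F : Ω → ℝ} (hF : ∀ s : ℝ, Integrable (fun x => exp (-s * F x)) μ) (s : ℝ) :
    HasDerivAt (fun s : ℝ => log (∫ x, exp (-s * F x) ∂μ))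
      (-∫ x, F x ∂(μ.tilted fun x => -s * F x)) s := by
  have h0 : (-s) ∈ interior (integrableExpSet F μ) := by
    rw [expSet hF, interior_univ]; trivial
  have h1 : ∫ x, F x ∂(μ.tilted fun x => -s * F x) = deriv (cgf F μ) (-s) :=
    integral_tilted_mul_self h0
  have h2 : HasDerivAt (cgf F μ) (deriv (cgf F μ) (-s)) (-s) :=
    (analyticAt_cgf h0).differentiableAt.hasDerivAt
  have h3 := h2.scomp s (hasDerivAt_neg s)
  rw [h1]
  have h4 : (fun s : ℝ => log (∫ x, exp (-s * F x) ∂μ)) = (cgf F μ ∘ fun s => -s) := rfl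
  rw [h4]
  simpa using h3

/-- `s ↦ ∫ F dν_s` is antitone -/
theorem antitone_mean {F : Ω → ℝ} (hF : ∀ s : ℝ, Integrable (fun x => exp (-s * F x)) μ) :
    Antitone (fun s : ℝ => ∫ x, F x ∂(μ.tilted fun x => -s * F x)) := by
  have h0 : ∀ s, s ∈ interior (integrableExpSet F μ) := fun s => by
    rw [expSet hF, interior_univ]; trivial
  have h1 : ∀ s : ℝ, ∫ x, F x ∂(μ.tilted fun x => -s * F x) = deriv (cgf F μ) (-s) :=
    fun s => integral_tilted_mul_self (h0 _)
  have h2 : AnalyticOnNhd ℝ (cgf F μ) Set.univ := by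
    have := analyticOnNhd_cgf (X := F) (μ := μ)
    rwa [expSet hF, interior_univ] at this
  have hd : Differentiable ℝ (deriv (cgf F μ)) := fun s => (h2.deriv s trivial).differentiableAt
  have hmon : Monotone (deriv (cgf F μ)) := by
    apply monotone_of_deriv_nonneg hd
    intro s
    have h3 := variance_tilted_mul (h0 s)
    rw [iteratedDeriv_succ, iteratedDeriv_one] at h3
    rw [← h3]
    exact variance_nonneg _ _
  intro s s' hs
  simp only [h1]
  exact hmon (by linarith)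

/-- local Lipschitz bound of `G'` -/
theorem lipschitz_mean {F : Ω → ℝ} (hF : ∀ s : ℝ, Integrable (fun x => exp (-s * F x)) μ)
    (T : ℝ) : ∃ M : ℝ, 0 ≤ M ∧ ∀ x ∈ Set.Icc 0 T, ∀ y ∈ Set.Icc 0 T,
      |(-∫ z, F z ∂(μ.tilted fun z => -x * F z)) - (-∫ z, F z ∂(μ.tilted fun z => -y * F z))|
        ≤ M * |x - y| := by
  have h0 : ∀ s, s ∈ interior (integrableExpSet F μ) := fun s => by
    rw [expSet hF, interior_univ]; trivial
  have h1 : ∀ s : ℝ, ∫ x, F x ∂(μ.tilted fun x => -s * F x) = deriv (cgf F μ) (-s) :=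
    fun s => integral_tilted_mul_self (h0 _)
  have h2 : AnalyticOnNhd ℝ (cgf F μ) Set.univ := by
    have := analyticOnNhd_cgf (X := F) (μ := μ)
    rwa [expSet hF, interior_univ] at this
  have hc : Continuous (deriv (deriv (cgf F μ))) := by
    rw [continuous_iff_continuousAt]
    intro t
    exact (h2.deriv.deriv t trivial).continuousAt
  obtain ⟨M, hM⟩ := (isCompact_Icc (a := -T) (b := (0 : ℝ))).exists_bound_of_continuousOn
    hc.continuousOn
  refine ⟨max M 0, le_max_right _ _, fun x hx y hy => ?_⟩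
  simp only [h1]
  have h3 := Convex.norm_image_sub_le_of_norm_hasDerivWithin_le
    (f := deriv (cgf F μ)) (f' := deriv (deriv (cgf F μ))) (s := Set.Icc (-T) 0) (C := max M 0)
    (fun z _ => ((h2.deriv z trivial).differentiableAt.hasDerivAt).hasDerivWithinAt)
    (fun z hz => (hM z hz).trans (le_max_left _ _)) (convex_Icc _ _)
    (x := -x) (y := -y) ⟨by linarith [hx.2], by linarith [hx.1]⟩
    ⟨by linarith [hy.2], by linarith [hy.1]⟩
  rw [norm_eq_abs, norm_eq_abs] at h3
  have e1 : -deriv (cgf F μ) (-x) - -deriv (cgf F μ) (-y)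
      = deriv (cgf F μ) (-y) - deriv (cgf F μ) (-x) := by ring
  rw [e1]
  refine h3.trans (le_of_eq ?_)
  congr 2
  ring

variable [IsProbabilityMeasure μ]

/-- **LIMSUM.** -/
theorem limsum {F : Ω → ℝ} (hF : ∀ s : ℝ, Integrable (fun x => exp (-s * F x)) μ)
    {t : ℝ} (ht : 0 < t) :
    Tendsto (fun N : ℕ => (t / N)⁻¹ * ∑ i ∈ Finset.range N,
      (exp (log (∫ x, exp (-(i * (t / N) + 2 * (t / N)) * F x) ∂μ)
        - 2 * log (∫ x, exp (-(i * (t / N) + t / N) * F x) ∂μ)
        + log (∫ x, exp (-(i * (t / N)) * F x) ∂μ)) - 1)) atTop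
      (𝓝 ((∫ x, F x ∂μ) - ∫ x, F x ∂(μ.tilted fun x => -t * F x))) := by
  obtain ⟨M, hM0, hM⟩ := lipschitz_mean hF (2 * t)
  have h := tendsto_sum_exp ht (hasDerivAt_G hF) hM
  have e : (-∫ x, F x ∂(μ.tilted fun x => -t * F x)) - -∫ x, F x ∂(μ.tilted fun x => -0 * F x)
      = (∫ x, F x ∂μ) - ∫ x, F x ∂(μ.tilted fun x => -t * F x) := by
    have : (fun x => -(0 : ℝ) * F x) = (0 : Ω → ℝ) := by
      funext x; simp
    rw [this, tilted_zero]
    ring
  rwa [e] at h

/-- entropy bound `G(t) + t E F ≤ t Δ` -/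
theorem log_mgf_le {F : Ω → ℝ} (hF : ∀ s : ℝ, Integrable (fun x => exp (-s * F x)) μ)
    {t : ℝ} (ht : 0 ≤ t) :
    log (∫ x, exp (-t * F x) ∂μ) + t * ∫ x, F x ∂μ
      ≤ t * ((∫ x, F x ∂μ) - ∫ x, F x ∂(μ.tilted fun x => -t * F x)) := by
  -- `G(t) - G(0) ≤ t G'(t)`
  have hanti := antitone_mean hF
  have hG := hasDerivAt_G hF
  have key : ∀ y ∈ Set.Icc (0 : ℝ) t, -(∫ x, F x ∂(μ.tilted fun x => -y * F x))
      ≤ -(∫ x, F x ∂(μ.tilted fun x => -t * F x)) := fun y hy => neg_le_neg (hanti hy.2)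
  have h1 : (log (∫ x, exp (-t * F x) ∂μ)) - log (∫ x, exp (-(0 : ℝ) * F x) ∂μ)
      ≤ (-(∫ x, F x ∂(μ.tilted fun x => -t * F x))) * (t - 0) := by
    rcases ht.eq_or_lt with rfl | ht'
    · simp
    obtain ⟨c, hc, hce⟩ := exists_hasDerivAt_eq_slope
      (fun s : ℝ => log (∫ x, exp (-s * F x) ∂μ))
      (fun s : ℝ => -(∫ x, F x ∂(μ.tilted fun x => -s * F x))) ht'
      (fun y _ => (hG y).continuousAt.continuousWithinAt) (fun y _ => hG y)
    have h2 := key c ⟨hc.1.le, hc.2.le⟩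
    rw [hce] at h2
    rw [div_le_iff₀ (by linarith)] at h2
    exact h2
  simp only [neg_zero, zero_mul, exp_zero, integral_const, probReal_univ, smul_eq_mul, mul_one,
    log_one, sub_zero] at h1
  linarith

/-- relative entropy of `ν_s`, `0 ≤ s ≤ t`, is at most `t Δ_t` -/
theorem entropy_le {F : Ω → ℝ} (hF : ∀ s : ℝ, Integrable (fun x => exp (-s * F x)) μ)
    (hFi : Integrable F μ) {s t : ℝ} (hs : 0 ≤ s) (hst : s ≤ t) :
    -s * (∫ x, F x ∂(μ.tilted fun x => -s * F x)) - log (∫ x, exp (-s * F x) ∂μ)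
      ≤ t * ((∫ x, F x ∂μ) - ∫ x, F x ∂(μ.tilted fun x => -t * F x)) := by
  have hanti := antitone_mean hF
  have h0 : ∫ x, F x ∂(μ.tilted fun x => -(0 : ℝ) * F x) = ∫ x, F x ∂μ := by
    have : (fun x => -(0 : ℝ) * F x) = (0 : Ω → ℝ) := by
      funext x; simp
    rw [this, tilted_zero]
  -- Jensen: `log ∫ e^{-sF} ≥ -s ∫ F`
  have hJ : -s * (∫ x, F x ∂μ) ≤ log (∫ x, exp (-s * F x) ∂μ) := by
    have hZ := integral_exp_pos (hF s)
    rw [Real.le_log_iff_exp_le hZ]
    have h1 : ∀ x, exp (-s * (∫ x, F x ∂μ)) * (1 + (-s * F x - -s * ∫ x, F x ∂μ))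
        ≤ exp (-s * F x) := by
      intro x
      have h2 := add_one_le_exp (-s * F x - -s * ∫ x, F x ∂μ)
      calc exp (-s * (∫ x, F x ∂μ)) * (1 + (-s * F x - -s * ∫ x, F x ∂μ))
          ≤ exp (-s * (∫ x, F x ∂μ)) * exp (-s * F x - -s * ∫ x, F x ∂μ) := by
            apply mul_le_mul_of_nonneg_left _ (exp_pos _).le
            linarith
        _ = exp (-s * F x) := by
            rw [← exp_add]; congr 1; ring
    have hi : Integrable (fun x => 1 + (-s * F x - -s * ∫ x, F x ∂μ)) μ :=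
      (integrable_const _).add ((hFi.const_mul _).sub (integrable_const _))
    have h2 := integral_mono (hi.const_mul (exp (-s * (∫ x, F x ∂μ)))) (hF s) h1
    have hi2 : Integrable (fun x => -s * F x - -s * ∫ x, F x ∂μ) μ :=
      (hFi.const_mul _).sub (integrable_const _)
    rw [integral_const_mul, integral_add (integrable_const _) hi2,
      integral_sub (hFi.const_mul _) (integrable_const _), integral_const_mul] at h2
    simpa using h2
  have h1 : (∫ x, F x ∂(μ.tilted fun x => -t * F x)) ≤ ∫ x, F x ∂(μ.tilted fun x => -s * F x) :=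
    hanti hst
  have h2 : (∫ x, F x ∂(μ.tilted fun x => -s * F x)) ≤ ∫ x, F x ∂μ := by
    have := hanti hs
    simp only at this
    rwa [h0] at this
  calc -s * (∫ x, F x ∂(μ.tilted fun x => -s * F x)) - log (∫ x, exp (-s * F x) ∂μ)
      ≤ s * ((∫ x, F x ∂μ) - ∫ x, F x ∂(μ.tilted fun x => -s * F x)) := by linarith
    _ ≤ t * ((∫ x, F x ∂μ) - ∫ x, F x ∂(μ.tilted fun x => -t * F x)) := by
        apply mul_le_mul hst _ _ (hs.trans hst)
        · linarith
        · linarith

end Vale.Agent.P245.H767
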